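import Mathlib
import Vale.Agent.Lib.P102.Outer

open MeasureTheory Filter Topology

/-- For a mixing measure preserving map and a finite valued observable that is not almost surely
constant, the letter at a far time `t₃` lying outside the two other times cannot be determined,
even approximately, by a window of any length `R` at `t₁` together with a window of fixed length `W`
at `t₂`, when the three times are far apart. -/
theorem Vale.Agent.Results.P102.LocalDeterminismOuter.result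
    {Ω : Type*} [MeasurableSpace Ω] {α : Type*} [Fintype α] [MeasurableSpace α]
    [MeasurableSingletonClass α]
    (μ : Measure Ω) [IsProbabilityMeasure μ] (T : Ω → Ω) (hT : MeasurePreserving T μ μ)
    (hmix : ∀ A B, MeasurableSet A → MeasurableSet B →
      Tendsto (fun n : ℕ => μ (A ∩ T^[n] ⁻¹' B)) atTop (𝓝 (μ A * μ B)))
    (ξ : Ω → α) (hξ : Measurable ξ) (hnc : ¬ ∃ c, ∀ᵐ ω ∂μ, ξ ω = c) (W : ℕ) :
    ∃ ε : ℝ, 0 < ε ∧ ∀ R : ℕ, ∃ G : ℕ, ∀ (t₁ t₂ t₃ : ℕ) (F : (Fin R → α) → (Fin W → α) → α),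
      (t₁ + G ≤ t₂ ∨ t₂ + G ≤ t₁) →
      ((t₁ + G ≤ t₃ ∧ t₂ + G ≤ t₃) ∨ (t₃ + G ≤ t₁ ∧ t₃ + G ≤ t₂)) →
      ε ≤ μ.real {ω | ξ (T^[t₃] ω) ≠ F (fun i => ξ (T^[t₁ + i] ω)) (fun j => ξ (T^[t₂ + j] ω))} := by
  obtain ⟨ε, hε, h⟩ := Vale.Agent.Lib.P102.no_neardet_outer (μ := μ) hT hmix hξ hnc W
  refine ⟨ε, hε, fun R => ?_⟩
  obtain ⟨G, hG⟩ := h R
  refine ⟨G, fun t₁ t₂ t₃ F h12 horder => ?_⟩
  have := hG t₁ t₂ t₃ F h12 horder
  have hset : Vale.Agent.Lib.P102.Err ξ T F t₁ t₂ t₃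
      = {ω | ξ (T^[t₃] ω) ≠ F (fun i => ξ (T^[t₁ + i] ω)) (fun j => ξ (T^[t₂ + j] ω))} := by
    ext ω
    have hw : ∀ K t : ℕ, Vale.Agent.Lib.P102.win ξ T K (T^[t] ω)
        = fun i : Fin K => ξ (T^[t + (i : ℕ)] ω) := by
      intro K t
      funext i
      simp only [Vale.Agent.Lib.P102.win]
      rw [← Function.iterate_add_apply, Nat.add_comm]
    simp only [Vale.Agent.Lib.P102.Err, Set.mem_ofPred_eq, hw]
  rwa [hset] at this
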